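import Vale.Agent.P154.AF.D.S524288D

set_option maxRecDepth 100000
set_option linter.defProp false
set_option linter.style.longLine false

namespace Vale.Agent.P154.AF.S524288

open Ck

def p0 : chkZ 524288 326555 pool (.hs (.hs (.hx (.hs (.lf 16) (.lf 16)) (.hx (.lf 11) (.lf 11))) (.hx (.hs (.lf 11) (.lf 11)) (.hx (.lf 11) (.lf 11)))) (.hs (.hx (.hs (.lf 11) (.lf 11)) (.hx (.hs (.lf 16) (.lf 16)) (.hs (.lf 11) (.lf 11)))) (.hx (.hs (.hx (.lf 16) (.lf 16)) (.hx (.lf 16) (.lf 16))) (.hs (.hx (.lf 16) (.lf 11)) (.hx (.lf 16) (.lf 11)))))) 0 2170 0 1933 = true := by decide +kernel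
def p1 : chkZ 524288 326555 pool (.hx (.hs (.hx (.lf 16) (.lf 16)) (.hx (.hs (.lf 16) (.lf 16)) (.hs (.lf 16) (.lf 16)))) (.hs (.hx (.lf 11) (.hx (.lf 16) (.lf 16))) (.hx (.hs (.lf 16) (.lf 16)) (.hs (.lf 11) (.lf 11))))) 2170 2712 0 1933 = true := by decide +kernel
def p2 : chkZ 524288 326555 pool (.hx (.hs (.hx (.hs (.lf 16) (.lf 16)) (.hs (.lf 16) (.lf 16))) (.hs (.hx (.lf 16) (.lf 16)) (.hx (.lf 16) (.lf 16)))) (.hs (.hx (.hs (.lf 16) (.lf 16)) (.hs (.lf 11) (.lf 11))) (.hx (.hs (.lf 16) (.lf 16)) (.hs (.hx (.lf 22) (.lf 22)) (.hx (.lf 22) (.lf 16)))))) 2712 3255 0 1933 = true := by decide +kernel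
def p3 : chkZ 524288 326555 pool (.hx (.hs (.hx (.lf 16) (.lf 16)) (.hx (.lf 16) (.lf 16))) (.hx (.hs (.hs (.lf 16) (.lf 16)) (.hs (.lf 16) (.lf 16))) (.hs (.hx (.lf 16) (.lf 16)) (.hx (.lf 16) (.lf 16))))) 3255 3526 0 1933 = true := by decide +kernel
def p4 : chkZ 524288 326555 pool (.hx (.hs (.hx (.lf 16) (.lf 16)) (.hx (.hs (.lf 16) (.lf 16)) (.hs (.lf 16) (.lf 16)))) (.hx (.hs (.hs (.lf 16) (.lf 16)) (.hs (.lf 16) (.lf 16))) (.hs (.hx (.lf 16) (.lf 16)) (.hx (.hs (.lf 22) (.lf 22)) (.hs (.lf 22) (.lf 22)))))) 3526 3797 0 1933 = true := by decide +kernel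

end Vale.Agent.P154.AF.S524288
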