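import Vale.Agent.P154.AF.D.S524288D

set_option maxRecDepth 100000
set_option linter.defProp false
set_option linter.style.longLine false

namespace Vale.Agent.P154.AF.S524288

open Ck

def p5 : chkZ 524288 326555 pool (.hx (.hs (.hx (.hs (.lf 16) (.lf 16)) (.hs (.lf 16) (.lf 16))) (.hx (.hs (.lf 16) (.lf 16)) (.hs (.lf 16) (.lf 16)))) (.hx (.hs (.hs (.hx (.lf 22) (.lf 22)) (.hx (.lf 22) (.lf 22))) (.hs (.hx (.lf 22) (.lf 22)) (.hx (.lf 22) (.lf 22)))) (.hs (.hx (.hs (.lf 22) (.lf 22)) (.hs (.lf 22) (.lf 22))) (.hx (.hs (.lf 22) (.lf 22)) (.hs (.lf 22) (.lf 22)))))) 3797 4068 0 1933 = true := by decide +kernel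
def p6 : chkZ 524288 326555 pool (.hs (.hx (.hs (.lf 16) (.lf 16)) (.hs (.hx (.lf 32) (.lf 32)) (.hx (.lf 32) (.lf 32)))) (.hx (.hs (.hx (.lf 32) (.lf 32)) (.hx (.lf 32) (.lf 32))) (.hs (.hx (.lf 32) (.lf 32)) (.hx (.lf 32) (.lf 32))))) 4068 4340 0 966 = true := by decide +kernel
def p7 : chkZ 524288 326555 pool (.hx (.hs (.hs (.hx (.lf 22) (.lf 22)) (.hx (.lf 22) (.lf 22))) (.hx (.hs (.lf 22) (.lf 22)) (.hs (.lf 22) (.lf 22)))) (.hs (.hx (.hs (.lf 22) (.lf 22)) (.hs (.lf 22) (.lf 16))) (.hx (.hs (.lf 22) (.lf 22)) (.hs (.hx (.lf 32) (.lf 32)) (.hx (.lf 32) (.lf 32)))))) 4068 4340 966 1933 = true := by decide +kernel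
def p8 : chkZ 524288 326555 pool (.hs (.hx (.hx (.lf 11) (.hx (.lf 16) (.lf 16))) (.hx (.hx (.lf 11) (.lf 11)) (.hx (.hx (.lf 16) (.lf 11)) (.hx (.lf 11) (.hx (.lf 16) (.lf 11)))))) (.hx (.hx (.lf 11) (.hx (.lf 16) (.lf 16))) (.hx (.hx (.lf 11) (.lf 11)) (.hx (.hx (.lf 16) (.lf 11)) (.hx (.hx (.lf 22) (.lf 16)) (.hx (.lf 16) (.lf 11))))))) 0 542 1933 3867 = true := by decide +kernel
def p9 : chkZ 524288 326555 pool (.hx (.hx (.hs (.lf 11) (.lf 11)) (.hx (.lf 11) (.lf 11))) (.hx (.hx (.lf 11) (.hx (.lf 11) (.lf 11))) (.hx (.hx (.lf 11) (.hs (.lf 11) (.lf 11))) (.hx (.hx (.lf 11) (.lf 11)) (.hx (.lf 11) (.hs (.lf 11) (.lf 11))))))) 542 1085 1933 3867 = true := by decide +kernel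

end Vale.Agent.P154.AF.S524288
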