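import Vale.Agent.P154.AF.D.S524288D

set_option maxRecDepth 100000
set_option linter.defProp false
set_option linter.style.longLine false

namespace Vale.Agent.P154.AF.S524288

open Ck

def p10 : chkZ 524288 326555 pool (.hs (.hx (.hs (.lf 11) (.lf 11)) (.hx (.hs (.lf 16) (.lf 16)) (.hs (.lf 16) (.lf 16)))) (.hx (.hs (.lf 11) (.hx (.lf 16) (.lf 16))) (.hs (.hx (.lf 16) (.lf 11)) (.hx (.lf 16) (.lf 11))))) 1085 2170 1933 2900 = true := by decide +kernel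
def p11 : chkZ 524288 326555 pool (.hs (.hx (.hs (.lf 11) (.lf 11)) (.hx (.hs (.lf 16) (.lf 16)) (.hs (.lf 16) (.lf 16)))) (.hx (.hs (.lf 11) (.lf 11)) (.hs (.hx (.lf 16) (.lf 16)) (.hx (.lf 16) (.lf 16))))) 1085 2170 2900 3383 = true := by decide +kernel
def p12 : chkZ 524288 326555 pool (.hx (.hs (.hx (.hs (.lf 16) (.lf 16)) (.hs (.lf 11) (.lf 11))) (.hx (.hs (.lf 11) (.lf 11)) (.hs (.lf 11) (.lf 11)))) (.hs (.hx (.hx (.hs (.lf 16) (.lf 16)) (.hs (.lf 16) (.lf 16))) (.hx (.hs (.lf 16) (.lf 16)) (.hs (.lf 11) (.lf 11)))) (.hx (.hs (.hx (.lf 16) (.lf 16)) (.hx (.lf 16) (.lf 16))) (.hx (.hs (.lf 11) (.lf 11)) (.hs (.lf 11) (.lf 11)))))) 1085 2170 3383 3867 = true := by decide +kernel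
def p13 : chkZ 524288 326555 pool (.hx (.hs (.hx (.lf 16) (.lf 16)) (.hs (.lf 11) (.lf 11))) (.hs (.hx (.lf 16) (.hs (.lf 16) (.lf 16))) (.hx (.hs (.lf 16) (.lf 16)) (.hs (.lf 16) (.lf 16))))) 2170 2712 1933 2900 = true := by decide +kernel
def p14 : chkZ 524288 326555 pool (.hs (.hx (.hs (.hx (.lf 22) (.lf 16)) (.hx (.lf 22) (.lf 16))) (.hx (.hs (.lf 16) (.lf 16)) (.hs (.lf 16) (.lf 11)))) (.hx (.hs (.hx (.lf 22) (.lf 16)) (.hx (.lf 16) (.lf 16))) (.hs (.hx (.lf 16) (.hx (.lf 22) (.lf 22))) (.hx (.lf 16) (.hx (.lf 16) (.lf 16)))))) 2712 3255 1933 2900 = true := by decide +kernel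

end Vale.Agent.P154.AF.S524288
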