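import Vale.Agent.P154.AF.D.S524288D

set_option maxRecDepth 100000
set_option linter.defProp false
set_option linter.style.longLine false

namespace Vale.Agent.P154.AF.S524288

open Ck

def p15 : chkZ 524288 326555 pool (.hx (.hs (.hx (.lf 16) (.lf 16)) (.hx (.lf 16) (.lf 16))) (.hs (.hx (.lf 16) (.hx (.lf 16) (.lf 16))) (.hx (.hs (.lf 16) (.lf 16)) (.hx (.lf 16) (.lf 16))))) 3255 3526 1933 2900 = true := by decide +kernel
def p16 : chkZ 524288 326555 pool (.hx (.hs (.hx (.hs (.lf 22) (.lf 22)) (.hs (.lf 16) (.lf 16))) (.hx (.hs (.lf 22) (.lf 22)) (.hs (.lf 16) (.lf 16)))) (.hs (.hx (.hs (.lf 16) (.lf 16)) (.hx (.lf 16) (.hs (.lf 22) (.lf 22)))) (.hx (.hs (.lf 16) (.lf 16)) (.hx (.hs (.lf 22) (.lf 22)) (.hs (.lf 22) (.lf 22)))))) 3526 3797 1933 2900 = true := by decide +kernel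
def p17 : chkZ 524288 326555 pool (.hs (.hx (.hs (.lf 16) (.lf 16)) (.hs (.lf 16) (.lf 16))) (.hx (.hs (.lf 16) (.lf 16)) (.hs (.lf 16) (.hx (.lf 22) (.lf 22))))) 3797 4068 1933 2416 = true := by decide +kernel
def p18 : chkZ 524288 326555 pool (.hs (.hx (.hs (.hx (.lf 22) (.lf 22)) (.hx (.lf 22) (.lf 22))) (.hx (.hs (.lf 22) (.lf 22)) (.hs (.lf 22) (.lf 22)))) (.hx (.hx (.hs (.lf 22) (.lf 22)) (.hs (.lf 22) (.lf 22))) (.hx (.hs (.lf 22) (.lf 22)) (.hs (.lf 22) (.lf 22))))) 3797 4068 2416 2900 = true := by decide +kernel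
def p19 : chkZ 524288 326555 pool (.hs (.hx (.hs (.lf 16) (.hx (.lf 32) (.lf 22))) (.hs (.hx (.lf 22) (.lf 22)) (.hx (.lf 22) (.lf 22)))) (.hx (.hs (.hx (.lf 32) (.lf 22)) (.hx (.lf 32) (.lf 22))) (.hs (.hx (.lf 22) (.lf 22)) (.hx (.lf 22) (.lf 22))))) 4068 4340 1933 2416 = true := by decide +kernel
def p20 : chkZ 524288 326555 pool (.hs (.hx (.hx (.hs (.lf 22) (.lf 22)) (.hs (.lf 22) (.lf 22))) (.hx (.hs (.lf 22) (.lf 22)) (.hs (.lf 22) (.lf 22)))) (.hx (.hx (.hs (.lf 22) (.lf 22)) (.hs (.lf 22) (.lf 22))) (.hx (.hs (.lf 22) (.hx (.lf 32) (.lf 32))) (.hs (.hs (.lf 22) (.lf 22)) (.hs (.lf 22) (.lf 22)))))) 4068 4340 2416 2900 = true := by decide +kernel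

end Vale.Agent.P154.AF.S524288
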