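import Vale.Agent.P154.AF.D.S524288D

set_option maxRecDepth 100000
set_option linter.defProp false
set_option linter.style.longLine false

namespace Vale.Agent.P154.AF.S524288

open Ck

def p21 : chkZ 524288 326555 pool (.hx (.hs (.hx (.lf 16) (.lf 16)) (.hs (.lf 11) (.lf 11))) (.hs (.hx (.lf 16) (.lf 16)) (.hx (.hs (.lf 16) (.lf 16)) (.hs (.lf 16) (.lf 16))))) 2170 2712 2900 3383 = true := by decide +kernel
def p22 : chkZ 524288 326555 pool (.hs (.hx (.hs (.lf 11) (.hx (.lf 22) (.lf 22))) (.hx (.hs (.lf 16) (.lf 16)) (.hs (.lf 16) (.lf 16)))) (.hx (.hs (.hx (.lf 16) (.lf 16)) (.hx (.lf 16) (.lf 16))) (.hs (.hx (.lf 16) (.lf 16)) (.hx (.lf 16) (.lf 16))))) 2712 3255 2900 3383 = true := by decide +kernel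
def p23 : chkZ 524288 326555 pool (.hs (.hs (.hx (.hs (.lf 16) (.lf 16)) (.hx (.lf 16) (.lf 16))) (.hx (.hs (.lf 16) (.lf 16)) (.hs (.lf 11) (.lf 11)))) (.hs (.hx (.hs (.lf 11) (.lf 11)) (.hs (.lf 11) (.hx (.lf 22) (.lf 16)))) (.hx (.hs (.hx (.lf 22) (.lf 22)) (.hx (.lf 16) (.lf 16))) (.hs (.hx (.lf 16) (.lf 16)) (.hx (.lf 16) (.lf 16)))))) 2170 3255 3383 3625 = true := by decide +kernel
def p24 : chkZ 524288 326555 pool (.hx (.hs (.hx (.lf 16) (.hs (.lf 16) (.lf 16))) (.hx (.hs (.lf 16) (.lf 16)) (.hs (.lf 16) (.lf 16)))) (.hs (.hx (.hs (.lf 16) (.lf 16)) (.hx (.lf 16) (.lf 16))) (.hx (.hs (.lf 16) (.lf 11)) (.hs (.lf 11) (.lf 11))))) 2170 2712 3625 3867 = true := by decide +kernel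
def p25 : chkZ 524288 326555 pool (.hx (.hs (.hx (.hs (.lf 16) (.lf 16)) (.hs (.lf 16) (.lf 16))) (.hs (.hx (.lf 16) (.lf 16)) (.hx (.lf 16) (.lf 16)))) (.hs (.hx (.hs (.lf 11) (.lf 11)) (.hs (.lf 11) (.lf 11))) (.hx (.hs (.hx (.lf 22) (.lf 22)) (.hx (.lf 16) (.lf 16))) (.hs (.hx (.lf 22) (.lf 16)) (.hx (.lf 16) (.lf 16)))))) 2712 3255 3625 3867 = true := by decide +kernel

end Vale.Agent.P154.AF.S524288
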