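import Vale.Agent.P154.AF.D.S524288D

set_option maxRecDepth 100000
set_option linter.defProp false
set_option linter.style.longLine false

namespace Vale.Agent.P154.AF.S524288

open Ck

def p26 : chkZ 524288 326555 pool (.hx (.hs (.hx (.lf 16) (.lf 16)) (.hx (.lf 16) (.lf 16))) (.hs (.hx (.lf 16) (.lf 16)) (.hx (.hs (.lf 16) (.lf 16)) (.hs (.lf 16) (.lf 16))))) 3255 3526 2900 3383 = true := by decide +kernel
def p27 : chkZ 524288 326555 pool (.hx (.hs (.hx (.hs (.lf 22) (.lf 22)) (.hs (.lf 22) (.lf 22))) (.hx (.hs (.lf 22) (.lf 22)) (.hs (.lf 22) (.lf 22)))) (.hs (.hx (.hs (.lf 16) (.lf 16)) (.hs (.lf 16) (.lf 16))) (.hx (.hs (.lf 16) (.lf 16)) (.hs (.lf 16) (.lf 16))))) 3526 3797 2900 3383 = true := by decide +kernel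
def p28 : chkZ 524288 326555 pool (.hx (.hs (.hs (.hx (.lf 22) (.lf 22)) (.hx (.lf 22) (.lf 16))) (.hx (.hs (.lf 22) (.lf 22)) (.hs (.lf 16) (.lf 16)))) (.hs (.hx (.hs (.lf 16) (.lf 16)) (.hs (.lf 16) (.hx (.lf 22) (.lf 22)))) (.hx (.hs (.hx (.lf 22) (.lf 22)) (.hx (.lf 22) (.lf 22))) (.hs (.hx (.lf 22) (.lf 22)) (.hx (.lf 22) (.lf 22)))))) 3797 4068 2900 3383 = true := by decide +kernel
def p29 : chkZ 524288 326555 pool (.hs (.hx (.hs (.hs (.lf 22) (.lf 22)) (.hx (.lf 32) (.lf 22))) (.hs (.hx (.lf 22) (.lf 22)) (.hx (.lf 22) (.lf 22)))) (.hx (.hs (.hx (.lf 22) (.lf 22)) (.hx (.lf 22) (.lf 22))) (.hs (.hx (.lf 22) (.lf 22)) (.hx (.lf 22) (.lf 22))))) 4068 4340 2900 3141 = true := by decide +kernel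
def p30 : chkZ 524288 326555 pool (.hs (.hx (.hs (.hx (.lf 22) (.lf 22)) (.hx (.lf 22) (.lf 22))) (.hs (.hx (.lf 22) (.lf 22)) (.hx (.lf 22) (.lf 22)))) (.hx (.hs (.hx (.lf 22) (.lf 22)) (.hx (.lf 22) (.lf 22))) (.hs (.hx (.lf 22) (.lf 22)) (.hx (.lf 22) (.lf 22))))) 4068 4340 3141 3383 = true := by decide +kernel

end Vale.Agent.P154.AF.S524288
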