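import Vale.Agent.P154.AF.D.S524288D

set_option maxRecDepth 100000
set_option linter.defProp false
set_option linter.style.longLine false

namespace Vale.Agent.P154.AF.S524288

open Ck

def p31 : chkZ 524288 326555 pool (.hx (.hs (.hx (.lf 16) (.lf 16)) (.hx (.lf 16) (.lf 16))) (.hs (.hx (.lf 16) (.lf 16)) (.hx (.lf 16) (.hs (.lf 22) (.lf 22))))) 3255 3526 3383 3625 = true := by decide +kernel
def p32 : chkZ 524288 326555 pool (.hs (.hx (.hx (.hs (.lf 22) (.lf 22)) (.hs (.lf 22) (.lf 22))) (.hx (.hs (.lf 22) (.lf 22)) (.hs (.lf 22) (.lf 22)))) (.hx (.hs (.hx (.lf 22) (.lf 22)) (.hx (.lf 22) (.lf 22))) (.hs (.hx (.lf 22) (.lf 22)) (.hx (.lf 22) (.lf 22))))) 3526 3797 3383 3625 = true := by decide +kernel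
def p33 : chkZ 524288 326555 pool (.hs (.hs (.hx (.lf 16) (.lf 16)) (.hx (.hs (.lf 16) (.lf 16)) (.hs (.lf 16) (.lf 16)))) (.hs (.hx (.hs (.lf 16) (.lf 16)) (.hs (.lf 16) (.lf 16))) (.hx (.hs (.lf 16) (.lf 16)) (.hs (.lf 16) (.lf 16))))) 3255 3797 3625 3746 = true := by decide +kernel
def p34 : chkZ 524288 326555 pool (.hs (.hx (.hs (.hx (.lf 16) (.lf 16)) (.hx (.lf 16) (.lf 16))) (.hs (.hx (.lf 16) (.lf 16)) (.hx (.lf 16) (.lf 16)))) (.hx (.hs (.hx (.hs (.lf 22) (.lf 22)) (.hs (.lf 22) (.lf 22))) (.hx (.hs (.lf 22) (.lf 22)) (.hs (.lf 22) (.lf 22)))) (.hs (.hx (.hs (.lf 22) (.lf 22)) (.hs (.lf 22) (.lf 16))) (.hx (.hs (.lf 22) (.lf 22)) (.hs (.lf 16) (.lf 16)))))) 3255 3797 3746 3867 = true := by decide +kernel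
def p35 : chkZ 524288 326555 pool (.hs (.hx (.hs (.hx (.lf 22) (.lf 22)) (.hx (.lf 22) (.lf 22))) (.hs (.hx (.lf 22) (.lf 22)) (.hx (.lf 22) (.lf 22)))) (.hx (.hs (.hx (.lf 22) (.lf 22)) (.hx (.lf 22) (.lf 22))) (.hs (.hx (.lf 22) (.lf 22)) (.hx (.lf 22) (.lf 16))))) 3797 4068 3383 3625 = true := by decide +kernel
def p36 : chkZ 524288 326555 pool (.hx (.hs (.hx (.lf 22) (.lf 22)) (.hx (.lf 22) (.lf 22))) (.hs (.hx (.lf 22) (.hx (.lf 22) (.lf 22))) (.hx (.hs (.lf 22) (.lf 22)) (.hx (.lf 22) (.lf 22))))) 4068 4204 3383 3625 = true := by decide +kernel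

end Vale.Agent.P154.AF.S524288
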