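import Vale.Agent.P154.AF.D.S524288D

set_option maxRecDepth 100000
set_option linter.defProp false
set_option linter.style.longLine false

namespace Vale.Agent.P154.AF.S524288

open Ck

def p37 : chkZ 524288 326555 pool (.hx (.hs (.hx (.lf 22) (.hs (.lf 22) (.lf 22))) (.hx (.hs (.lf 22) (.lf 22)) (.hs (.lf 22) (.lf 22)))) (.hs (.hx (.hs (.lf 22) (.lf 22)) (.hx (.lf 22) (.lf 22))) (.hx (.hs (.lf 22) (.lf 22)) (.hx (.lf 22) (.lf 22))))) 4204 4340 3383 3625 = true := by decide +kernel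
def p38 : chkZ 524288 326555 pool (.hs (.hx (.hs (.lf 16) (.lf 16)) (.hs (.lf 16) (.hx (.lf 22) (.lf 22)))) (.hx (.hs (.lf 16) (.hx (.lf 22) (.lf 22))) (.hs (.hx (.lf 22) (.lf 22)) (.hx (.lf 22) (.lf 22))))) 3797 4068 3625 3746 = true := by decide +kernel
def p39 : chkZ 524288 326555 pool (.hs (.hx (.hs (.hx (.lf 22) (.lf 22)) (.hx (.lf 22) (.lf 22))) (.hx (.hs (.lf 22) (.lf 22)) (.hs (.lf 16) (.lf 16)))) (.hx (.hs (.hx (.lf 22) (.lf 22)) (.hx (.lf 22) (.lf 22))) (.hs (.hx (.lf 22) (.lf 16)) (.hx (.lf 22) (.lf 16))))) 3797 4068 3746 3867 = true := by decide +kernel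
def p40 : chkZ 524288 326555 pool (.hs (.hx (.hs (.hx (.lf 22) (.lf 22)) (.hx (.lf 22) (.lf 22))) (.hs (.hx (.lf 22) (.lf 22)) (.hx (.lf 22) (.lf 22)))) (.hx (.hs (.hx (.lf 22) (.lf 22)) (.hx (.lf 22) (.lf 22))) (.hs (.hx (.lf 22) (.lf 22)) (.hx (.lf 22) (.lf 22))))) 4068 4340 3625 3746 = true := by decide +kernel
def p41 : chkZ 524288 326555 pool (.hs (.hx (.hs (.hx (.lf 22) (.lf 22)) (.hx (.lf 22) (.lf 22))) (.hs (.hx (.lf 22) (.hx (.lf 22) (.lf 22))) (.hx (.lf 22) (.hx (.lf 22) (.lf 22))))) (.hx (.hs (.hx (.lf 22) (.lf 22)) (.hx (.lf 22) (.hs (.lf 22) (.lf 22)))) (.hs (.hx (.hs (.lf 22) (.lf 22)) (.hx (.lf 22) (.lf 22))) (.hx (.hs (.lf 22) (.lf 22)) (.hx (.lf 22) (.lf 22)))))) 4068 4340 3746 3867 = true := by decide +kernel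

end Vale.Agent.P154.AF.S524288
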